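import Vale.Agent.P093.N.SymPow

/-!
# P241, block YK: words

`Dec A W` : the object `W` is the direct sum of the objects `A j`, `j : ι`, `ι` finite. Then the
power `tpow W m` is the direct sum of the word objects `wt A m w = A (w 0) ⊗ (A (w 1) ⊗ ⋯ ⊗ 𝟙_)`,
`w : Fin m → ι` (`Dec.pow`), the permutations of the factors map the summand of `w` to the one of
`w ∘ σ⁻¹` (`win_perm`), a transposition of two equal letters acts as `ε` if `ε` is the braiding
of the letter (`win_swap`), and the matrix coefficients of an element of the group algebra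
between words with letters of braiding `1` are given by `win_permAlg_wpr`.
-/

open CategoryTheory MonoidalCategory Equiv

universe v u

namespace Vale.Agent.P241.H568

open Vale.Agent.P093.Cox Vale.Agent.P093.SymPow

section Dec

variable {C : Type u} [Category.{v} C] [Preadditive C] {ι : Type*} [Fintype ι]

/-- The object `W` is the direct sum of the objects `A j`. -/
structure Dec (A : ι → C) (W : C) where
  /-- the inclusions -/
  inj (j : ι) : A j ⟶ W
  /-- the projections -/
  prj (j : ι) : W ⟶ A j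
  inj_prj (j : ι) : inj j ≫ prj j = 𝟙 (A j)
  inj_prj_ne {j k : ι} (h : j ≠ k) : inj j ≫ prj k = 0
  total : ∑ j, prj j ≫ inj j = 𝟙 W

attribute [reassoc (attr := simp)] Dec.inj_prj

variable {A : ι → C} {W : C} (d : Dec A W)

namespace Dec

@[reassoc]
theorem inj_prj_ne' {j k : ι} (h : j ≠ k) : d.inj j ≫ d.prj k = 0 := d.inj_prj_ne h

/-- morphisms out of a direct sum -/
theorem hom_ext {Z : C} {f g : W ⟶ Z} (h : ∀ j, d.inj j ≫ f = d.inj j ≫ g) : f = g := by
  rw [← Category.id_comp f, ← Category.id_comp g, ← d.total, Preadditive.sum_comp,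
    Preadditive.sum_comp]
  refine Finset.sum_congr rfl fun j _ => ?_
  rw [Category.assoc, Category.assoc, h]

/-- morphisms into a direct sum -/
theorem hom_ext' {Z : C} {f g : Z ⟶ W} (h : ∀ j, f ≫ d.prj j = g ≫ d.prj j) : f = g := by
  rw [← Category.comp_id f, ← Category.comp_id g, ← d.total, Preadditive.comp_sum,
    Preadditive.comp_sum]
  refine Finset.sum_congr rfl fun j _ => ?_
  rw [reassoc_of% (h j)]

/-- the morphism out of a direct sum with given components -/
def desc {Z : C} (x : ∀ j, A j ⟶ Z) : W ⟶ Z := ∑ j, d.prj j ≫ x j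

@[reassoc (attr := simp)]
theorem inj_desc {Z : C} (x : ∀ j, A j ⟶ Z) (j : ι) : d.inj j ≫ d.desc x = x j := by
  unfold desc
  rw [Preadditive.comp_sum, Finset.sum_eq_single j]
  · rw [inj_prj_assoc]
  · intro k _ hk
    rw [d.inj_prj_ne'_assoc hk.symm, Limits.zero_comp]
  · intro h
    exact absurd (Finset.mem_univ j) h

/-- a morphism into a direct sum is the sum of its components -/
theorem sum_prj_inj {Z : C} (f : Z ⟶ W) : ∑ j, (f ≫ d.prj j) ≫ d.inj j = f := by
  simp only [Category.assoc]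
  rw [← Preadditive.comp_sum, d.total, Category.comp_id]

/-- a morphism into a direct sum with only one component -/
theorem eq_of_prj {Z : C} (f : Z ⟶ W) (j : ι) (h : ∀ k, k ≠ j → f ≫ d.prj k = 0) :
    f = (f ≫ d.prj j) ≫ d.inj j := by
  conv_lhs => rw [← d.sum_prj_inj f]
  refine Finset.sum_eq_single j (fun k _ hk => ?_) (fun h => absurd (Finset.mem_univ j) h)
  rw [h k hk, Limits.zero_comp]

end Dec

end Dec

section Words

variable {C : Type u} [Category.{v} C] [MonoidalCategory C] {ι : Type*}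

/-- the word object `A (w 0) ⊗ (A (w 1) ⊗ ⋯ ⊗ 𝟙_)` -/
@[reducible]
def wt (A : ι → C) : (m : ℕ) → (Fin m → ι) → C
  | 0, _ => 𝟙_ C
  | m + 1, w => A (w 0) ⊗ wt A m (Fin.tail w)

variable [Preadditive C] [Fintype ι] {A : ι → C} {W : C} (d : Dec A W)

/-- the inclusion of a word object -/
def win : (m : ℕ) → (w : Fin m → ι) → (wt A m w ⟶ tpow W m)
  | 0, _ => 𝟙 (𝟙_ C)
  | m + 1, w => d.inj (w 0) ⊗ₘ win m (Fin.tail w)

/-- the projection to a word object -/
def wpr : (m : ℕ) → (w : Fin m → ι) → (tpow W m ⟶ wt A m w)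
  | 0, _ => 𝟙 (𝟙_ C)
  | m + 1, w => d.prj (w 0) ⊗ₘ wpr m (Fin.tail w)

theorem win_succ {m : ℕ} (w : Fin (m + 1) → ι) :
    win d (m + 1) w = d.inj (w 0) ⊗ₘ win d m (Fin.tail w) := rfl

theorem wpr_succ {m : ℕ} (w : Fin (m + 1) → ι) :
    wpr d (m + 1) w = d.prj (w 0) ⊗ₘ wpr d m (Fin.tail w) := rfl

@[reassoc (attr := simp)]
theorem win_wpr (m : ℕ) (w : Fin m → ι) : win d m w ≫ wpr d m w = 𝟙 _ := by
  induction m with
  | zero => exact Category.id_comp _
  | succ m ih => rw [win_succ, wpr_succ, tensorHom_comp_tensorHom, ih, d.inj_prj, id_tensorHom_id]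

omit [Fintype ι] in
theorem ne_cases {m : ℕ} {w u : Fin (m + 1) → ι} (h : w ≠ u) :
    w 0 ≠ u 0 ∨ Fin.tail w ≠ Fin.tail u := by
  by_contra hc
  rw [not_or, not_not, not_not] at hc
  apply h
  rw [← Fin.cons_self_tail w, ← Fin.cons_self_tail u, hc.1, hc.2]

variable [MonoidalPreadditive C]

@[reassoc]
theorem win_wpr_ne (m : ℕ) {w u : Fin m → ι} (h : w ≠ u) : win d m w ≫ wpr d m u = 0 := by
  induction m with
  | zero => exact absurd (funext fun i => i.elim0) h
  | succ m ih =>
    rw [win_succ, wpr_succ, tensorHom_comp_tensorHom]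
    rcases ne_cases h with h0 | h0
    · rw [d.inj_prj_ne h0, MonoidalPreadditive.zero_tensor]
    · rw [ih h0, MonoidalPreadditive.tensor_zero]

theorem sum_wpr_win (m : ℕ) : ∑ w, wpr d m w ≫ win d m w = 𝟙 (tpow W m) := by
  classical
  induction m with
  | zero =>
    rw [Fintype.sum_unique]
    exact Category.id_comp _
  | succ m ih =>
    rw [← (Fin.consEquiv fun _ => ι).sum_comp, Fintype.sum_prod_type]
    have h : ∀ (j : ι) (v : Fin m → ι),
        wpr d (m + 1) ((Fin.consEquiv fun _ => ι) (j, v)) ≫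
          win d (m + 1) ((Fin.consEquiv fun _ => ι) (j, v)) =
        (d.prj j ≫ d.inj j) ⊗ₘ (wpr d m v ≫ win d m v) := by
      intro j v
      change wpr d (m + 1) (Fin.cons j v : Fin (m + 1) → ι) ≫
        win d (m + 1) (Fin.cons j v : Fin (m + 1) → ι) = _
      rw [wpr_succ, win_succ, tensorHom_comp_tensorHom]
      rfl
    simp only [h]
    simp only [← tensor_sum, ih, ← sum_tensor, d.total]
    exact id_tensorHom_id _ _

/-- **The power of a direct sum is the direct sum of the word objects.** -/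
@[simps]
def Dec.pow (m : ℕ) : Dec (fun w : Fin m → ι => wt A m w) (tpow W m) where
  inj w := win d m w
  prj w := wpr d m w
  inj_prj w := win_wpr d m w
  inj_prj_ne h := win_wpr_ne d m h
  total := sum_wpr_win d m

/-! ### permutations -/

variable [SymmetricCategory C]

omit [Fintype ι] in
theorem adj_zero_tail {m : ℕ} (w : Fin (m + 2) → ι) :
    w ∘ adj (0 : Fin (m + 1)) = Fin.cons (w 1) (Fin.cons (w 0) (Fin.tail (Fin.tail w))) := by
  funext x
  refine Fin.cases rfl (fun x => Fin.cases rfl (fun x => rfl) x) x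

omit [Fintype ι] in
theorem adj_succ_tail {m : ℕ} (w : Fin (m + 2) → ι) (i : Fin m) :
    w ∘ adj i.succ = Fin.cons (w 0) (Fin.tail w ∘ adj i) := by
  funext x
  refine Fin.cases ?_ (fun x => ?_) x
  · change w (adj i.succ 0) = w 0
    congr 1
  · change w (adj i.succ x.succ) = w (adj i x).succ
    congr 1
    apply Fin.ext
    rw [adj_apply, Fin.val_succ, Fin.val_succ, Fin.val_succ, adj_apply]
    split_ifs <;> omega

theorem win_sw_wpr_ne {m : ℕ} (i : Fin m) {w u : Fin (m + 1) → ι} (h : w ∘ adj i ≠ u) :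
    win d (m + 1) w ≫ sw W (m + 1) i ≫ wpr d (m + 1) u = 0 := by
  induction m with
  | zero => exact i.elim0
  | succ m ih =>
    revert h
    refine Fin.cases ?_ (fun i => ?_) i
    · intro h
      rw [adj_zero_tail] at h
      change (d.inj (w 0) ⊗ₘ (d.inj (w 1) ⊗ₘ win d m (Fin.tail (Fin.tail w)))) ≫
        sw2 W W (tpow W m) ≫
          (d.prj (u 0) ⊗ₘ (d.prj (u 1) ⊗ₘ wpr d m (Fin.tail (Fin.tail u)))) = 0
      rw [sw2_naturality_assoc, tensorHom_comp_tensorHom, tensorHom_comp_tensorHom]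
      rcases ne_cases h with h0 | h0
      · rw [d.inj_prj_ne (by exact h0), MonoidalPreadditive.zero_tensor, Limits.comp_zero]
      · rcases ne_cases h0 with h1 | h1
        · rw [d.inj_prj_ne (j := w 0) (k := u 1) (by exact h1), MonoidalPreadditive.zero_tensor,
            MonoidalPreadditive.tensor_zero, Limits.comp_zero]
        · rw [win_wpr_ne d m (by exact h1), MonoidalPreadditive.tensor_zero,
            MonoidalPreadditive.tensor_zero, Limits.comp_zero]
    · intro h
      rw [adj_succ_tail] at h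
      change (d.inj (w 0) ⊗ₘ win d (m + 1) (Fin.tail w)) ≫ (W ◁ sw W (m + 1) i) ≫
        (d.prj (u 0) ⊗ₘ wpr d (m + 1) (Fin.tail u)) = 0
      rw [← id_tensorHom, tensorHom_comp_tensorHom, tensorHom_comp_tensorHom, Category.id_comp]
      rcases ne_cases h with h0 | h0
      · rw [d.inj_prj_ne (by exact h0), MonoidalPreadditive.zero_tensor]
      · rw [ih i (by exact h0), MonoidalPreadditive.tensor_zero]

theorem win_perm_wpr_ne {m : ℕ} (σ : Perm (Fin m)) {w u : Fin m → ι} (h : w ∘ ⇑σ⁻¹ ≠ u) :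
    win d m w ≫ (perm W m σ : tpow W m ⟶ tpow W m) ≫ wpr d m u = 0 := by
  cases m with
  | zero => exact absurd (funext fun i => i.elim0) h
  | succ m =>
    induction σ using perm_induction generalizing u with
    | h1 =>
      rw [perm_one, Category.id_comp]
      exact win_wpr_ne d _ h
    | h i σ hσ =>
      have h1 : win d (m + 1) w ≫ (perm W (m + 1) σ : tpow W (m + 1) ⟶ tpow W (m + 1)) =
          (win d (m + 1) w ≫ (perm W (m + 1) σ : tpow W (m + 1) ⟶ tpow W (m + 1)) ≫
            wpr d (m + 1) (w ∘ ⇑σ⁻¹)) ≫ win d (m + 1) (w ∘ ⇑σ⁻¹) := by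
        have := (d.pow (m + 1)).eq_of_prj (win d (m + 1) w ≫
          (perm W (m + 1) σ : tpow W (m + 1) ⟶ tpow W (m + 1))) (w ∘ ⇑σ⁻¹)
          (fun k hk => by
            rw [Category.assoc]
            exact hσ hk.symm)
        simp only [Category.assoc] at this ⊢
        exact this
      rw [perm_adj_mul, Category.assoc, reassoc_of% h1, win_sw_wpr_ne d i (by exact h)]
      simp only [Limits.comp_zero]

/-- the isomorphism `wt w ⟶ wt (w ∘ σ⁻¹)` -/
noncomputable def wperm {m : ℕ} (σ : Perm (Fin m)) (w : Fin m → ι) : wt A m w ⟶ wt A m (w ∘ ⇑σ⁻¹) :=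
  win d m w ≫ (perm W m σ : tpow W m ⟶ tpow W m) ≫ wpr d m (w ∘ ⇑σ⁻¹)

/-- **The permutation `σ` maps the summand of the word `w` to the one of `w ∘ σ⁻¹`.** -/
@[reassoc]
theorem win_perm {m : ℕ} (σ : Perm (Fin m)) (w : Fin m → ι) :
    win d m w ≫ (perm W m σ : tpow W m ⟶ tpow W m) = wperm d σ w ≫ win d m (w ∘ ⇑σ⁻¹) := by
  have := (d.pow m).eq_of_prj (win d m w ≫ (perm W m σ : tpow W m ⟶ tpow W m)) (w ∘ ⇑σ⁻¹)
    (fun k hk => by
      rw [Category.assoc]
      exact win_perm_wpr_ne d σ hk.symm)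
  unfold wperm
  simp only [Category.assoc] at this ⊢
  exact this

@[reassoc]
theorem win_sw {m : ℕ} (i : Fin m) (w : Fin (m + 1) → ι) :
    win d (m + 1) w ≫ sw W (m + 1) i = wperm d (adj i) w ≫ win d (m + 1) (w ∘ adj i) := by
  have h := win_perm d (adj i) w
  rw [perm_adj] at h
  exact h

omit [Preadditive C] [MonoidalPreadditive C] in
theorem perm_perm_inv {m : ℕ} (σ : Perm (Fin m)) :
    (perm W m σ : tpow W m ⟶ tpow W m) ≫ (perm W m σ⁻¹ : tpow W m ⟶ tpow W m) = 𝟙 _ := by
  rw [← perm_mul, inv_mul_cancel, perm_one]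

omit [Preadditive C] [MonoidalPreadditive C] in
theorem perm_inv_perm {m : ℕ} (σ : Perm (Fin m)) :
    (perm W m σ⁻¹ : tpow W m ⟶ tpow W m) ≫ (perm W m σ : tpow W m ⟶ tpow W m) = 𝟙 _ := by
  rw [← perm_mul, mul_inv_cancel, perm_one]

instance isIso_wperm {m : ℕ} (σ : Perm (Fin m)) (w : Fin m → ι) : IsIso (wperm d σ w) := by
  refine ⟨win d m (w ∘ ⇑σ⁻¹) ≫ (perm W m σ⁻¹ : tpow W m ⟶ tpow W m) ≫ wpr d m w, ?_, ?_⟩
  · rw [← Category.assoc, ← win_perm, Category.assoc, reassoc_of% (perm_perm_inv (W := W) σ),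
      win_wpr]
  · have h : win d m (w ∘ ⇑σ⁻¹) ≫ (perm W m σ⁻¹ : tpow W m ⟶ tpow W m) ≫ wpr d m w ≫
        win d m w = win d m (w ∘ ⇑σ⁻¹) ≫ (perm W m σ⁻¹ : tpow W m ⟶ tpow W m) := by
      have := (d.pow m).eq_of_prj (win d m (w ∘ ⇑σ⁻¹) ≫ (perm W m σ⁻¹ : tpow W m ⟶ tpow W m)) w
        (fun k hk => by
          rw [Category.assoc]
          refine win_perm_wpr_ne d σ⁻¹ fun hc => hk (hc.symm.trans ?_)
          funext x
          change w (σ⁻¹ (σ⁻¹⁻¹ x)) = w x
          rw [inv_inv]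
          exact congrArg w (σ.symm_apply_apply x))
      simp only [Category.assoc] at this
      exact this.symm
    unfold wperm
    simp only [Category.assoc]
    rw [reassoc_of% h, reassoc_of% (perm_inv_perm (W := W) σ), win_wpr]

/-! ### equal letters -/

omit [SymmetricCategory C] in
theorem zsmul_whiskerRight' {X Y : C} (n : ℤ) (f : X ⟶ Y) (Z : C) :
    (n • f) ▷ Z = n • (f ▷ Z) :=
  map_zsmul (AddMonoidHom.mk' (fun f : X ⟶ Y => f ▷ Z)
    (fun f g => MonoidalPreadditive.add_whiskerRight f g)) n f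

omit [SymmetricCategory C] in
theorem tensorHom_zsmul' {X Y X' Y' : C} (f : X ⟶ Y) (n : ℤ) (g : X' ⟶ Y') :
    (f ⊗ₘ (n • g)) = n • (f ⊗ₘ g) :=
  map_zsmul (AddMonoidHom.mk' (fun g : X' ⟶ Y' => f ⊗ₘ g)
    (fun _ _ => MonoidalPreadditive.tensor_add _ _ _)) n g

theorem inj_inj_sw2 {a b : ι} (hab : a = b) {ε : ℤ}
    (hβ : (β_ (A a) (A a)).hom = ε • 𝟙 (A a ⊗ A a)) {R R' : C} (g : R ⟶ R') :
    (d.inj a ⊗ₘ (d.inj b ⊗ₘ g)) ≫ sw2 W W R' = ε • (d.inj a ⊗ₘ (d.inj b ⊗ₘ g)) := by
  subst hab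
  have h : sw2 (A a) (A a) R = ε • 𝟙 _ := by
    unfold sw2
    rw [hβ, zsmul_whiskerRight', id_whiskerRight, Preadditive.zsmul_comp, Preadditive.comp_zsmul,
      Category.id_comp, Iso.inv_hom_id]
  rw [sw2_naturality, h, Preadditive.zsmul_comp, Category.id_comp]

theorem win_sw_eq {m : ℕ} (i : Fin m) {w : Fin (m + 1) → ι} (hw : w i.castSucc = w i.succ)
    {ε : ℤ} (hβ : (β_ (A (w i.succ)) (A (w i.succ))).hom = ε • 𝟙 _) :
    win d (m + 1) w ≫ sw W (m + 1) i = ε • win d (m + 1) w := by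
  induction m with
  | zero => exact i.elim0
  | succ m ih =>
    revert hw hβ
    refine Fin.cases ?_ (fun i => ?_) i
    · intro hw hβ
      refine inj_inj_sw2 d hw ?_ _
      rw [hw]
      exact hβ
    · intro hw hβ
      change (d.inj (w 0) ⊗ₘ win d (m + 1) (Fin.tail w)) ≫ (W ◁ sw W (m + 1) i) =
        ε • (d.inj (w 0) ⊗ₘ win d (m + 1) (Fin.tail w))
      rw [← id_tensorHom, tensorHom_comp_tensorHom, Category.comp_id,
        ih i (w := Fin.tail w) hw hβ, tensorHom_zsmul']

theorem exists_perm_two {m : ℕ} {a b : Fin (m + 2)} (hab : a ≠ b) :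
    ∃ τ : Perm (Fin (m + 2)), τ 0 = a ∧ τ 1 = b := by
  have h10 : (1 : Fin (m + 2)) ≠ 0 := by
    intro h
    simpa using congrArg Fin.val h
  refine ⟨swap (swap 0 a 1) b * swap 0 a, ?_, ?_⟩
  · change swap (swap 0 a 1) b (swap 0 a 0) = a
    rw [swap_apply_left]
    refine swap_apply_of_ne_of_ne ?_ hab
    intro h
    have h' := congrArg (swap 0 a) h
    rw [swap_apply_right, ← Perm.mul_apply, swap_mul_self] at h'
    exact h10 h'.symm
  · change swap (swap 0 a 1) b (swap 0 a 1) = b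
    rw [swap_apply_left]

/-- **A transposition of two equal letters acts as the braiding of the letter.** -/
theorem win_swap {m : ℕ} {w : Fin m → ι} {a b : Fin m} (hab : a ≠ b) (hw : w a = w b)
    {ε : ℤ} (hβ : (β_ (A (w a)) (A (w a))).hom = ε • 𝟙 _) :
    win d m w ≫ (perm W m (swap a b) : tpow W m ⟶ tpow W m) = ε • win d m w := by
  match m, w, a, b, hab, hw, hβ with
  | 0, _, a, _, _, _, _ => exact a.elim0
  | 1, _, a, b, hab, _, _ => exact absurd (Subsingleton.elim a b) hab
  | m + 2, w, a, b, hab, hw, hβ =>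
    obtain ⟨τ, rfl, rfl⟩ := exists_perm_two hab
    have e : swap (τ 0) (τ 1) = τ * adj (0 : Fin (m + 1)) * τ⁻¹ := swap_apply_apply τ 0 1
    have hβ' : (β_ (A (w (τ 1))) (A (w (τ 1)))).hom = ε • 𝟙 _ := by
      rw [← hw]
      exact hβ
    have h1 : win d (m + 2) (w ∘ ⇑τ⁻¹⁻¹) ≫ sw W (m + 2) 0 = ε • win d (m + 2) (w ∘ ⇑τ⁻¹⁻¹) :=
      win_sw_eq d (0 : Fin (m + 1)) hw hβ'
    have h2 := perm_adj W (0 : Fin (m + 1))
    rw [e, perm_mul, perm_mul, h2, win_perm_assoc]
    erw [reassoc_of% h1]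
    rw [Preadditive.zsmul_comp, Preadditive.comp_zsmul, ← win_perm_assoc, perm_inv_perm,
      Category.comp_id]

/-- the alternating property of the permutations of a word -/
theorem win_mul_swap {m : ℕ} {w : Fin m → ι} {a b : Fin m} (hab : a ≠ b) (hw : w a = w b)
    {ε : ℤ} (hβ : (β_ (A (w a)) (A (w a))).hom = ε • 𝟙 _) (σ : Perm (Fin m)) :
    win d m w ≫ (perm W m (σ * swap a b) : tpow W m ⟶ tpow W m) =
      ε • (win d m w ≫ (perm W m σ : tpow W m ⟶ tpow W m)) := by
  rw [perm_mul, ← Category.assoc, win_swap d hab hw hβ, Preadditive.zsmul_comp]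

/-- permutations which fix a word of letters with braiding `1` -/
theorem win_perm_fix {m : ℕ} {w : Fin m → ι} (hβ : ∀ a, (β_ (A (w a)) (A (w a))).hom = 𝟙 _)
    (τ : Perm (Fin m)) (hτ : ∀ a, w (τ a) = w a) :
    win d m w ≫ (perm W m τ : tpow W m ⟶ tpow W m) = win d m w := by
  induction hn : τ.support.card using Nat.strong_induction_on generalizing τ with
  | _ n ih =>
    by_cases h1 : τ = 1
    · subst h1
      rw [perm_one, Category.comp_id]
    · obtain ⟨a, ha⟩ : ∃ a, τ a ≠ a := by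
        by_contra hc
        exact h1 (Equiv.ext fun a => by_contra fun h => hc ⟨a, h⟩)
      have hlt := Perm.card_support_swap_mul ha
      have h2 : τ = swap a (τ a) * (swap a (τ a) * τ) := by
        rw [← mul_assoc, swap_mul_self, one_mul]
      have hw' : ∀ x, w (swap a (τ a) x) = w x := by
        intro x
        rw [swap_apply_def]
        split_ifs with h3 h4
        · rw [h3, hτ]
        · rw [h4, hτ]
        · rfl
      have h3 := ih _ (hn ▸ hlt) (swap a (τ a) * τ) (fun x => by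
        rw [Perm.mul_apply, hw', hτ]) rfl
      rw [h2, perm_mul, ← Category.assoc, h3]
      have h4 := win_swap d (w := w) (a := a) (b := τ a) ha.symm (hτ a).symm (ε := 1)
        (by rw [hβ, one_zsmul])
      rw [h4, one_zsmul]

/-- for words of letters with braiding `1`, the permutation `σ` depends only on `w ∘ σ⁻¹` -/
theorem win_perm_congr {m : ℕ} {w : Fin m → ι} (hβ : ∀ a, (β_ (A (w a)) (A (w a))).hom = 𝟙 _)
    {σ σ' : Perm (Fin m)} (h : w ∘ ⇑σ⁻¹ = w ∘ ⇑σ'⁻¹) :
    win d m w ≫ (perm W m σ : tpow W m ⟶ tpow W m) =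
      win d m w ≫ (perm W m σ' : tpow W m ⟶ tpow W m) := by
  have h1 : σ = σ' * (σ'⁻¹ * σ) := by rw [mul_inv_cancel_left]
  have h2 : ∀ a, w ((σ'⁻¹ * σ) a) = w a := by
    intro a
    have := congrFun h (σ a)
    simp only [Function.comp_apply] at this
    rw [Perm.mul_apply, ← this]
    exact congrArg w (σ.symm_apply_apply a)
  rw [h1, perm_mul, ← Category.assoc, win_perm_fix d hβ _ h2]

omit [MonoidalPreadditive C] in
/-- the action of the group algebra in terms of the permutations -/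
theorem permAlg_eq_sum (m : ℕ) (x : MonoidAlgebra ℤ (Perm (Fin m))) :
    (permAlg W m x : tpow W m ⟶ tpow W m) =
      ∑ σ, x.coeff σ • (perm W m σ : tpow W m ⟶ tpow W m) := by
  classical
  induction x using MonoidAlgebra.induction_linear with
  | zero =>
    rw [map_zero]
    refine (Finset.sum_eq_zero fun σ _ => ?_).symm
    exact zero_smul ℤ _
  | add g h hg hh =>
    rw [map_add]
    refine Eq.trans (congrArg₂ (· + ·) hg hh) ?_
    rw [← Finset.sum_add_distrib]
    refine Finset.sum_congr rfl fun σ _ => ?_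
    exact (add_smul _ _ _).symm
  | single σ n =>
    rw [permAlg_single, Finset.sum_eq_single σ]
    · rw [MonoidAlgebra.coeff_single, Finsupp.single_eq_same]
    · intro τ _ hτ
      rw [MonoidAlgebra.coeff_single, Finsupp.single_eq_of_ne hτ, zero_smul]
    · intro h
      exact absurd (Finset.mem_univ σ) h

/-- **Matrix coefficients of the group algebra** between words with letters of braiding `1` -/
theorem win_permAlg_wpr {m : ℕ} {w : Fin m → ι} (hβ : ∀ a, (β_ (A (w a)) (A (w a))).hom = 𝟙 _)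
    (x : MonoidAlgebra ℤ (Perm (Fin m))) (σ₀ : Perm (Fin m)) [DecidableEq ι] :
    win d m w ≫ (permAlg W m x : tpow W m ⟶ tpow W m) ≫ wpr d m (w ∘ ⇑σ₀⁻¹) =
      (∑ σ ∈ Finset.univ.filter (fun σ : Perm (Fin m) => w ∘ ⇑σ⁻¹ = w ∘ ⇑σ₀⁻¹),
          x.coeff σ) •
        wperm d σ₀ w := by
  rw [permAlg_eq_sum, Preadditive.sum_comp, Preadditive.comp_sum, Finset.sum_smul,
    Finset.sum_filter]
  refine Finset.sum_congr rfl fun σ _ => ?_
  rw [Preadditive.zsmul_comp, Preadditive.comp_zsmul]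
  split_ifs with h
  · unfold wperm
    rw [← Category.assoc, win_perm_congr d hβ h, Category.assoc]
  · rw [win_perm_wpr_ne d σ h, smul_zero]

end Words

end Vale.Agent.P241.H568
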